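import Vale.Agent.TM.Core

/-! The class `PT` of polynomial-time functions and its primitive closure properties. -/

namespace Vale.Agent.TM

open Turing Function

variable {α β γ δ : Type} [Enc α] [Enc β] [Enc γ] [Enc δ]

/-! ### Encodings and sizes -/

@[simp] lemma enc_tr (t : Tr) : Enc.enc t = t := rfl
@[simp] lemma enc_false : Enc.enc false = Tr.nil := rfl
@[simp] lemma enc_true : Enc.enc true = Tr.node .nil .nil := rfl
@[simp] lemma enc_zero : Enc.enc (0 : ℕ) = Tr.nil := rfl
@[simp] lemma enc_succ (n : ℕ) : Enc.enc (n + 1) = Tr.node .nil (Enc.enc n) := rfl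
@[simp] lemma enc_unit (u : Unit) : Enc.enc u = Tr.nil := rfl
@[simp] lemma enc_pair (a : α) (b : β) : Enc.enc (a, b) = Tr.node (Enc.enc a) (Enc.enc b) := rfl
lemma enc_prod (p : α × β) : Enc.enc p = Tr.node (Enc.enc p.1) (Enc.enc p.2) := rfl
@[simp] lemma enc_nil : Enc.enc ([] : List α) = Tr.nil := rfl
@[simp] lemma enc_cons (a : α) (l : List α) :
    Enc.enc (a :: l) = Tr.node (Enc.enc a) (Enc.enc l) := rfl
@[simp] lemma enc_none : Enc.enc (none : Option α) = Tr.nil := rfl
@[simp] lemma enc_some (a : α) : Enc.enc (some a) = Tr.node (Enc.enc a) .nil := rfl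

lemma Tr.code_append_inj : ∀ (s t : Tr) (u v : List Bool), s.code ++ u = t.code ++ v →
    s = t ∧ u = v
  | .nil, .nil, u, v, h => by simpa [Tr.code] using h
  | .nil, .node _ _, u, v, h => by simp [Tr.code] at h
  | .node _ _, .nil, u, v, h => by simp [Tr.code] at h
  | .node a b, .node c d, u, v, h => by
    simp only [Tr.code, List.cons_append, List.append_assoc, List.cons.injEq, true_and] at h
    obtain ⟨h1, h2⟩ := Tr.code_append_inj a c _ _ h
    obtain ⟨h3, h4⟩ := Tr.code_append_inj b d _ _ h2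
    exact ⟨by rw [h1, h3], h4⟩

lemma Tr.code_inj : Injective Tr.code := fun s t h =>
  (Tr.code_append_inj s t [] [] (by simpa using h)).1

lemma bits_inj : Injective (bits : α → List Bool) := fun _ _ h => Enc.inj (Tr.code_inj h)

lemma sz_eq (x : α) : sz x = (bits x).length := rfl

lemma sz_enc (x : α) : sz (Enc.enc x) = sz x := rfl

lemma sz_pos (x : α) : 0 < sz x := by
  unfold sz
  cases Enc.enc x <;> simp [Tr.code]

@[simp] lemma sz_trnil : sz Tr.nil = 1 := rfl
@[simp] lemma sz_node (l r : Tr) : sz (Tr.node l r) = sz l + sz r + 1 := by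
  simp [sz, Tr.code]
@[simp] lemma sz_false : sz false = 1 := rfl
@[simp] lemma sz_true : sz true = 3 := rfl
lemma sz_bool_le (b : Bool) : sz b ≤ 3 := by cases b <;> simp
@[simp] lemma sz_unit (u : Unit) : sz u = 1 := rfl
@[simp] lemma sz_pair (a : α) (b : β) : sz (a, b) = sz a + sz b + 1 := by
  simp [sz, Tr.code]
lemma sz_prod (p : α × β) : sz p = sz p.1 + sz p.2 + 1 := sz_pair p.1 p.2
@[simp] lemma sz_nil : sz ([] : List α) = 1 := rfl
@[simp] lemma sz_cons (a : α) (l : List α) : sz (a :: l) = sz a + sz l + 1 := by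
  simp [sz, Tr.code]
@[simp] lemma sz_none : sz (none : Option α) = 1 := rfl
@[simp] lemma sz_some (a : α) : sz (some a) = sz a + 2 := by
  simp [sz, Tr.code]
@[simp] lemma sz_nat (n : ℕ) : sz n = 2 * n + 1 := by
  induction n with
  | zero => rfl
  | succ n ih =>
    have : sz (n + 1) = sz n + 2 := by simp [sz, Tr.code]
    omega

lemma sz_list (l : List α) : sz l = 1 + (l.map fun a => 1 + sz a).sum := by
  induction l with
  | nil => rfl
  | cons a l ih => simp [ih]; omega

lemma sz_append (l m : List α) : sz (l ++ m) + 1 = sz l + sz m := by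
  induction l with
  | nil => simp; omega
  | cons a l ih => simp; omega

@[simp] lemma sz_reverse (l : List α) : sz l.reverse = sz l := by
  simp [sz_list, List.sum_reverse]

lemma two_length_lt_sz (l : List α) : 2 * l.length < sz l := by
  induction l with
  | nil => simp
  | cons a l ih => have := sz_pos a; simp; omega

lemma length_le_sz (l : List α) : l.length ≤ sz l := by
  have := two_length_lt_sz l; omega

lemma sz_le_of_sublist {l m : List α} (h : l.Sublist m) : sz l ≤ sz m := by
  induction h with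
  | slnil => simp
  | cons a _ ih => simp; omega
  | cons_cons a _ ih => simp; omega

lemma sz_lt_of_mem {a : α} {l : List α} (h : a ∈ l) : sz a < sz l := by
  have := sz_le_of_sublist (List.singleton_sublist.2 h)
  simp at this
  omega

lemma sz_le_of_mem {a : α} {l : List α} (h : a ∈ l) : sz a ≤ sz l := (sz_lt_of_mem h).le

lemma sz_take_le (k : ℕ) (l : List α) : sz (l.take k) ≤ sz l :=
  sz_le_of_sublist (List.take_sublist k l)

lemma sz_drop_le (k : ℕ) (l : List α) : sz (l.drop k) ≤ sz l :=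
  sz_le_of_sublist (List.drop_sublist k l)

lemma sz_list_le {l : List α} {B : ℕ} (h : ∀ a ∈ l, sz a ≤ B) :
    sz l ≤ l.length * (B + 1) + 1 := by
  induction l with
  | nil => simp
  | cons a l ih =>
    have h1 := h a (by simp)
    have h2 := ih (fun b hb => h b (by simp [hb]))
    simp only [sz_cons, List.length_cons]
    nlinarith

lemma sz_perm {l m : List α} (h : l.Perm m) : sz l = sz m := by
  rw [sz_list, sz_list, (h.map _).sum_eq]

/-! ### Polynomially bounded quantities -/

lemma poly_mono (P : Polynomial ℕ) {a b : ℕ} (h : a ≤ b) : P.eval a ≤ P.eval b := by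
  induction P using Polynomial.induction_on' with
  | add p q hp hq => simp only [Polynomial.eval_add]; omega
  | monomial n c =>
    simp only [Polynomial.eval_monomial]
    exact Nat.mul_le_mul_left _ (Nat.pow_le_pow_left h _)

/-- `t` is bounded by a polynomial in the size of the input. -/
def PB (t : α → ℕ) : Prop := ∃ P : Polynomial ℕ, ∀ x, t x ≤ P.eval (sz x)

lemma PB.const (c : ℕ) : PB (fun _ : α => c) := ⟨Polynomial.C c, fun x => by simp⟩

lemma PB.sz : PB (fun x : α => sz x) := ⟨Polynomial.X, fun x => by simp⟩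

lemma PB.mono {s t : α → ℕ} (h : PB t) (hst : ∀ x, s x ≤ t x) : PB s := by
  obtain ⟨P, hP⟩ := h
  exact ⟨P, fun x => (hst x).trans (hP x)⟩

lemma PB.add {s t : α → ℕ} (hs : PB s) (ht : PB t) : PB (fun x => s x + t x) := by
  obtain ⟨P, hP⟩ := hs
  obtain ⟨Q, hQ⟩ := ht
  exact ⟨P + Q, fun x => by simpa using Nat.add_le_add (hP x) (hQ x)⟩

lemma PB.mul {s t : α → ℕ} (hs : PB s) (ht : PB t) : PB (fun x => s x * t x) := by
  obtain ⟨P, hP⟩ := hs
  obtain ⟨Q, hQ⟩ := ht
  exact ⟨P * Q, fun x => by simpa using Nat.mul_le_mul (hP x) (hQ x)⟩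

lemma PB.poly {s : α → ℕ} (hs : PB s) (P : Polynomial ℕ) : PB (fun x => P.eval (s x)) := by
  obtain ⟨Q, hQ⟩ := hs
  exact ⟨P.comp Q, fun x => by simpa [Polynomial.eval_comp] using poly_mono P (hQ x)⟩

lemma PB.comp {t : β → ℕ} (ht : PB t) {f : α → β} (hf : PB (fun x => TM.sz (f x))) :
    PB (fun x => t (f x)) := by
  obtain ⟨P, hP⟩ := ht
  exact (hf.poly P).mono (fun x => hP (f x))

/-! ### Polynomial-time functions -/

/-- `f` is computed in polynomial time by a stack program. -/
@[fun_prop] def PT (f : α → β) : Prop :=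
  ∃ (p : Cmd) (t : α → ℕ), PB t ∧ ∀ x, Cmp p (bits x) (bits (f x)) (t x)

lemma st_nil (l : List Bool) : st l [] [] [] = update (fun _ => []) 0 l := by
  funext k; by_cases h : k = 0 <;> simp [st, h]

theorem PT.size {f : α → β} (h : PT f) : ∃ P : Polynomial ℕ, ∀ x, sz (f x) ≤ P.eval (sz x) := by
  obtain ⟨p, t, ht, h⟩ := h
  refine (PB.sz.add ((PB.const p.size).mul (ht.add (PB.const 1)))).mono (fun x => ?_)
  simpa [sz_eq] using (h x []).length_le 0

lemma PT.pb {f : α → β} (h : PT f) : PB (fun x => sz (f x)) := h.size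

lemma PT.pb_nat {f : α → ℕ} (h : PT f) : PB f := h.pb.mono (fun x => by simp; omega)

lemma PT.pb_length {f : α → List β} (h : PT f) : PB (fun x => (f x).length) :=
  h.pb.mono (fun _ => length_le_sz _)

theorem PT.toTM {f : α → β} (h : PT f) :
    ∃ M : TM2ComputableInPolyTime (fun x => (Enc.enc x).code) (fun y => (Enc.enc y).code) f,
      ∀ k, Finite (M.tm.Γ k) := by
  obtain ⟨p, t, ⟨P, hP⟩, h⟩ := h
  refine ⟨⟨⟨machine p p.bd 0 0, Equiv.refl _, Equiv.refl _⟩, P + 1, fun x => ?_⟩,
    fun k => (inferInstance : Finite Bool)⟩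
  have h1 := ((h x).mono (hP x)) []
  rw [List.append_nil, List.append_nil, st_nil, st_nil] at h1
  have h2 := machine_outputs (R := p.bd) le_rfl (by omega) (by omega) h1
  have e1 : ∀ l : List Bool, List.map (Equiv.refl Bool).invFun l = l := fun l => List.map_id l
  rw [← e1 (bits x), ← e1 (bits (f x))] at h2
  rw [Polynomial.eval_add, Polynomial.eval_one]
  exact h2.some

theorem PT.toTM' {f : α → β} (h : PT f) :
    ∃ M : TM2ComputableInPolyTime bits bits f, ∀ k, Finite (M.tm.Γ k) := h.toTM

/-- Change of the output type along equal codes. -/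
theorem PT.of_enc {f : α → β} {g : α → γ} (h : PT g) (e : ∀ x, Enc.enc (f x) = Enc.enc (g x)) :
    PT f := by
  obtain ⟨p, t, ht, h⟩ := h
  exact ⟨p, t, ht, fun x => by simpa only [bits, e] using h x⟩

theorem PT.of_eq {f g : α → β} (h : PT g) (e : ∀ x, f x = g x) : PT f :=
  h.of_enc (fun x => by rw [e])

@[fun_prop] theorem PT.id : PT (fun x : α => x) :=
  ⟨.skip, fun _ => 0, PB.const 0, fun _ => Cmp.skip _⟩

@[fun_prop] theorem PT.comp {f : β → γ} {g : α → β} (hf : PT f) (hg : PT g) :
    PT (fun x => f (g x)) := by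
  have hs := hg.pb
  obtain ⟨p, t, ht, h⟩ := hf
  obtain ⟨q, s, hs', h'⟩ := hg
  exact ⟨.seq q p, fun x => s x + t (g x), hs'.add (ht.comp hs), fun x => (h' x).seq (h (g x))⟩

@[fun_prop] theorem PT.pair {f : α → β} {g : α → γ} (hf : PT f) (hg : PT g) :
    PT (fun x => (f x, g x)) := by
  have hs := hg.pb
  obtain ⟨p, t, ht, h⟩ := hf
  obtain ⟨q, s, hs', h'⟩ := hg
  refine ⟨.seq cDup (.seq q (.seq cSwap (.seq p (.push 0 true)))),
    fun x => 5 * sz x + 2 * sz (g x) + s x + t x + 7,
    (((((PB.const 5).mul PB.sz).add ((PB.const 2).mul hs)).add hs').add ht).add (PB.const 7),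
    fun x => ?_⟩
  refine ((cDup_cmp (Enc.enc x)).seq (((h' x).frame (bits x)).seq
    ((cSwap_cmp (Enc.enc (g x)) (Enc.enc x)).seq (((h x).frame (bits (g x))).seq
      (Cmp.push true _))))).mono ?_
  simp only [sz]
  omega

theorem PT.enc : PT (fun x : α => Enc.enc x) := PT.id.of_enc (fun _ => rfl)

@[fun_prop] theorem PT.enc' {f : α → β} (hf : PT f) : PT (fun x => Enc.enc (f x)) :=
  hf.of_enc (fun _ => rfl)

@[fun_prop] theorem PT.node {f g : α → Tr} (hf : PT f) (hg : PT g) :
    PT (fun x => Tr.node (f x) (g x)) := (hf.pair hg).of_enc (fun _ => rfl)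

@[fun_prop] theorem PT.left {f : α → Tr} (hf : PT f) : PT (fun x => (f x).left) := by
  have : PT Tr.left := ⟨cLeft, fun x => 3 * sz x + 5,
    ((PB.const 3).mul PB.sz).add (PB.const 5), fun x => cLeft_cmp x⟩
  exact this.comp hf

@[fun_prop] theorem PT.right {f : α → Tr} (hf : PT f) : PT (fun x => (f x).right) := by
  have : PT Tr.right := ⟨cRight, fun x => sz x, PB.sz, fun x => cRight_cmp x⟩
  exact this.comp hf

@[fun_prop] theorem PT.code {f : α → Tr} (hf : PT f) : PT (fun x => (f x).code) := by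
  have : PT Tr.code := ⟨cCode, fun x => 2 * sz x + 2,
    ((PB.const 2).mul PB.sz).add (PB.const 2), fun x => cCode_cmp x⟩
  exact this.comp hf

@[fun_prop] theorem PT.bits {f : α → β} (hf : PT f) : PT (fun x => bits (f x)) :=
  PT.code hf.enc'

lemma PT.const_tr (c : Tr) : PT (fun _ : α => c) := by
  induction c with
  | nil => exact ⟨.seq cDrop (.push 0 false), fun x => sz x + 1, PB.sz.add (PB.const 1),
      fun x => (cDrop_cmp (Enc.enc x)).seq (Cmp.push false [])⟩
  | node l r hl hr => exact hl.node hr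

@[fun_prop] theorem PT.const (c : β) : PT (fun _ : α => c) :=
  (PT.const_tr (Enc.enc c)).of_enc (fun _ => rfl)

@[fun_prop] theorem PT.fst {f : α → β × γ} (hf : PT f) : PT (fun x => (f x).1) :=
  hf.enc'.left.of_enc (fun _ => rfl)

@[fun_prop] theorem PT.snd {f : α → β × γ} (hf : PT f) : PT (fun x => (f x).2) :=
  hf.enc'.right.of_enc (fun _ => rfl)

/-- Branching on the shape of a tree. -/
theorem PT.branch {c : α → Tr} {f g : α → β} (hc : PT c) (hf : PT f) (hg : PT g) :
    PT (fun x => bif (c x).isNode then f x else g x) := by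
  have hs := hc.pb
  obtain ⟨r, u, hu, hc⟩ := hc
  obtain ⟨p, t, ht, h⟩ := hf
  obtain ⟨q, s, hs', h'⟩ := hg
  refine ⟨.seq cDup (.seq r (.test 0 (.seq cDrop p) (.seq cDrop q))),
    fun x => 3 * sz x + sz (c x) + u x + s x + t x + 4,
    (((((PB.const 3).mul PB.sz).add hs).add hu).add hs').add ht |>.add (PB.const 4),
    fun x => ?_⟩
  have key : Cmp (.test 0 (.seq cDrop p) (.seq cDrop q)) (TM.bits (c x) ++ TM.bits x)
      (TM.bits (bif (c x).isNode then f x else g x)) (sz (c x) + 1 + (s x + t x)) := by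
    have h1 := ((cDrop_cmp (c x)).frame (TM.bits x)).seq (h x)
    have h2 := ((cDrop_cmp (c x)).frame (TM.bits x)).seq (h' x)
    change Cmp _ ((c x).code ++ _) _ ((c x).code.length + 1 + _)
    cases hcx : c x with
    | nil => rw [hcx] at h2; exact (Cmp.testF h2).mono (by omega)
    | node a b => rw [hcx] at h1; exact (Cmp.testT h1).mono (by omega)
  refine ((cDup_cmp (Enc.enc x)).seq (((hc x).frame (TM.bits x)).seq key)).mono ?_
  simp only [sz]
  omega

@[fun_prop] theorem PT.isNode {f : α → Tr} (hf : PT f) : PT (fun x => (f x).isNode) :=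
  (PT.branch hf (PT.const true) (PT.const false)).of_eq (fun x => by cases (f x).isNode <;> rfl)

@[fun_prop] theorem PT.cond {c : α → Bool} {f g : α → β} (hc : PT c) (hf : PT f) (hg : PT g) :
    PT (fun x => bif c x then f x else g x) :=
  (PT.branch hc.enc' hf hg).of_eq (fun x => by cases c x <;> rfl)

lemma fold_loop {F : γ → β → α → β} {p : Cmd} {t : (α × List α) × γ × β → ℕ} {P : Polynomial ℕ}
    (hP : ∀ y, t y ≤ P.eval (sz y))
    (h : ∀ y, Cmp p (bits y) (bits (y.1.2, y.2.1, F y.2.1 y.2.2 y.1.1)) (t y)) (x : γ) (M : ℕ)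
    (d : List Bool) : ∀ (l : List α) (b : β), (∀ k, sz ((l.take k).foldl (F x) b) ≤ M) →
      sz l ≤ M → Exec (.loop 1 (.seq (.pop 1) (.seq p cFlag)))
        (st (bits (l, x, b) ++ d) (bif (Enc.enc l).isNode then [true] else []) [] [])
        (st (bits (([] : List α), x, l.foldl (F x) b) ++ d) [] [] [])
        (l.length * (P.eval (2 * M + sz x + 2) + 1) + 1)
  | [], b, _, _ => (Exec.loop0 rfl).mono (by simp)
  | a :: l, b, hb, hl => by
    have h0 : sz b ≤ M := by simpa using hb 0
    have h1 : sz l ≤ M := by simp at hl; omega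
    have h2 := fold_loop hP h x M d l (F x b a) (fun k => by simpa using hb (k + 1)) h1
    have h3 := (pop1 true (bits (a :: l, x, b) ++ d) [] [] []).seq ((h ((a, l), x, b) d).seq
      (cFlag_exec (Enc.enc l) (Enc.enc (x, F x b a)) d))
    have h4 : t ((a, l), x, b) ≤ P.eval (2 * M + sz x + 2) :=
      (hP _).trans (poly_mono P (by simp at hl ⊢; omega))
    refine (Exec.loop1 (by simp) h3 h2).mono ?_
    simp only [List.length_cons]
    nlinarith

/-- The loop primitive. -/
theorem PT.foldl {F : γ → β → α → β} {l : γ → List α} {b : γ → β}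
    (hF : PT fun p : γ × β × α => F p.1 p.2.1 p.2.2) (hl : PT l) (hb : PT b)
    (bound : ∃ P : Polynomial ℕ, ∀ x k, sz (((l x).take k).foldl (F x) (b x)) ≤ P.eval (sz x)) :
    PT fun x => (l x).foldl (F x) (b x) := by
  have hB : PT fun y : (α × List α) × γ × β => (y.1.2, y.2.1, F y.2.1 y.2.2 y.1.1) := by
    have := hF.comp (g := fun y : (α × List α) × γ × β => (y.2.1, y.2.2, y.1.1)) (by fun_prop)
    fun_prop
  obtain ⟨p, t, ⟨P, hP⟩, h⟩ := hB
  obtain ⟨Q, hQ⟩ := bound
  have hs := hl.pb
  have hI : PT fun x => (l x, x, b x) := by fun_prop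
  obtain ⟨q, s, hs', h'⟩ := hI
  have hM : PB fun x => Q.eval (sz x) + sz (l x) := (PB.sz.poly Q).add hs
  have hL : PT fun x => (([] : List α), x, (l x).foldl (F x) (b x)) := by
    refine ⟨.seq q (.seq cFlag (.loop 1 (.seq (.pop 1) (.seq p cFlag)))),
      fun x => s x + ((l x).length *
        (P.eval (2 * (Q.eval (sz x) + sz (l x)) + sz x + 2) + 1) + 1),
      hs'.add ((hl.pb_length.mul ((((((PB.const 2).mul hM).add PB.sz).add (PB.const 2)).poly P).add
        (PB.const 1))).add (PB.const 1)), fun x d => ?_⟩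
    have h1 := fold_loop hP h x (Q.eval (sz x) + sz (l x)) d (l x) (b x)
      (fun k => (hQ x k).trans (by omega)) (by omega)
    exact ((h' x d).seq ((cFlag_exec (Enc.enc (l x)) (Enc.enc (x, b x)) d).seq h1)).mono
      (by beta_reduce; omega)
  exact hL.snd.snd

attribute [irreducible] PT

end Vale.Agent.TM
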