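import Vale.Agent.TM.PT

/-! Closure properties of `PT`: booleans, numbers, lists, options and binders. -/

namespace Vale.Agent.TM

open Function

variable {α β γ δ : Type} [Enc α] [Enc β] [Enc γ] [Enc δ]

/-! ### Variants of the loop rule -/

/-- Loop rule with an invariant bounding the size of the accumulator. -/
theorem PT.foldl_inv {F : γ → β → α → β} {l : γ → List α} {b : γ → β}
    (hF : PT fun p : γ × β × α => F p.1 p.2.1 p.2.2) (hl : PT l) (hb : PT b)
    (I : γ → β → Prop) (h0 : ∀ x, I x (b x)) (hs : ∀ x s a, a ∈ l x → I x s → I x (F x s a))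
    {B : γ → ℕ} (hB : PB B) (hI : ∀ x s, I x s → sz s ≤ B x) :
    PT fun x => (l x).foldl (F x) (b x) := by
  obtain ⟨P, hP⟩ := hB
  refine PT.foldl hF hl hb ⟨P, fun x k => (hI x _ ?_).trans (hP x)⟩
  exact List.foldlRecOn (motive := I x) _ _ (h0 x)
    (fun s hs' a ha => hs x s a (List.mem_of_mem_take ha) hs')

omit [Enc α] in
lemma sz_foldl_le {F : β → α → β} {G : ℕ} : ∀ (l : List α) (b : β),
    (∀ s a, a ∈ l → sz (F s a) ≤ sz s + G) → sz (l.foldl F b) ≤ sz b + l.length * G
  | [], b, _ => by simp
  | a :: l, b, h => by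
    have h1 := sz_foldl_le l (F b a) (fun s c hc => h s c (by simp [hc]))
    have h2 := h b a (by simp)
    simp only [List.foldl_cons, List.length_cons]
    nlinarith

/-- Loop rule when each step increases the size by a polynomially bounded amount. -/
theorem PT.foldl_add {F : γ → β → α → β} {l : γ → List α} {b : γ → β}
    (hF : PT fun p : γ × β × α => F p.1 p.2.1 p.2.2) (hl : PT l) (hb : PT b)
    {G : γ → ℕ} (hG : PB G) (hs : ∀ x s a, a ∈ l x → sz (F x s a) ≤ sz s + G x) :
    PT fun x => (l x).foldl (F x) (b x) := by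
  obtain ⟨P, hP⟩ := hb.pb.add (hl.pb_length.mul hG)
  refine PT.foldl hF hl hb ⟨P, fun x k => le_trans ?_ (hP x)⟩
  have h1 := sz_foldl_le (F := F x) (G := G x) ((l x).take k) (b x)
    (fun s a ha => hs x s a (List.mem_of_mem_take ha))
  have h2 : ((l x).take k).length * G x ≤ (l x).length * G x :=
    Nat.mul_le_mul_right _ (by simp)
  beta_reduce
  omega

lemma enc_replicate_unit (n : ℕ) : Enc.enc (List.replicate n ()) = Enc.enc n := by
  induction n with
  | zero => rfl
  | succ n ih => simp [List.replicate_succ, ih]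

theorem PT.units {n : α → ℕ} (hn : PT n) : PT fun x => List.replicate (n x) () :=
  hn.of_enc (fun _ => enc_replicate_unit _)

/-- Bounded iteration. -/
theorem PT.iterate {F : γ → β → β} {n : γ → ℕ} {b : γ → β}
    (hF : PT fun p : γ × β => F p.1 p.2) (hn : PT n) (hb : PT b)
    (bound : ∃ P : Polynomial ℕ, ∀ x k, k ≤ n x → sz ((F x)^[k] (b x)) ≤ P.eval (sz x)) :
    PT fun x => (F x)^[n x] (b x) := by
  obtain ⟨P, hP⟩ := bound
  have h := PT.foldl (F := fun x s (_ : Unit) => F x s)
    (hF.comp (g := fun p : γ × β × Unit => (p.1, p.2.1)) (by fun_prop)) hn.units hb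
    ⟨P, fun x k => by
      rw [List.foldl_const]
      exact hP x _ (by simp)⟩
  exact h.of_eq (fun x => by rw [List.foldl_const, List.length_replicate])

/-- Bounded iteration with an invariant. -/
theorem PT.iterate_inv {F : γ → β → β} {n : γ → ℕ} {b : γ → β}
    (hF : PT fun p : γ × β => F p.1 p.2) (hn : PT n) (hb : PT b)
    (I : γ → β → Prop) (h0 : ∀ x, I x (b x)) (hs : ∀ x s, I x s → I x (F x s))
    {B : γ → ℕ} (hB : PB B) (hI : ∀ x s, I x s → sz s ≤ B x) :
    PT fun x => (F x)^[n x] (b x) := by
  obtain ⟨P, hP⟩ := hB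
  refine PT.iterate hF hn hb ⟨P, fun x k _ => (hI x _ ?_).trans (hP x)⟩
  induction k with
  | zero => exact h0 x
  | succ k ih => rw [iterate_succ_apply']; exact hs x _ (ih (by omega))

/-- Bounded iteration when each step increases the size by a polynomially bounded amount. -/
theorem PT.iterate_add {F : γ → β → β} {n : γ → ℕ} {b : γ → β}
    (hF : PT fun p : γ × β => F p.1 p.2) (hn : PT n) (hb : PT b)
    {G : γ → ℕ} (hG : PB G) (hs : ∀ x s, sz (F x s) ≤ sz s + G x) :
    PT fun x => (F x)^[n x] (b x) := by
  have h := PT.foldl_add (F := fun x s (_ : Unit) => F x s)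
    (hF.comp (g := fun p : γ × β × Unit => (p.1, p.2.1)) (by fun_prop)) hn.units hb hG
    (fun x s _ _ => hs x s)
  exact h.of_eq (fun x => by rw [List.foldl_const, List.length_replicate])

/-! ### Booleans -/

section Bool
variable {f g : α → Bool}

@[fun_prop] theorem PT.not (hf : PT f) : PT fun x => !(f x) :=
  (PT.cond hf (PT.const false) (PT.const true)).of_eq (fun x => by cases f x <;> rfl)

@[fun_prop] theorem PT.and (hf : PT f) (hg : PT g) : PT fun x => (f x && g x) :=
  (PT.cond hf hg (PT.const false)).of_eq (fun x => by cases f x <;> rfl)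

@[fun_prop] theorem PT.or (hf : PT f) (hg : PT g) : PT fun x => (f x || g x) :=
  (PT.cond hf (PT.const true) hg).of_eq (fun x => by cases f x <;> rfl)

@[fun_prop] theorem PT.xor (hf : PT f) (hg : PT g) : PT fun x => (f x ^^ g x) :=
  (PT.cond hf hg.not hg).of_eq (fun x => by cases f x <;> cases g x <;> rfl)

@[fun_prop] theorem PT.toNat (hf : PT f) : PT fun x => (f x).toNat :=
  (PT.cond hf (PT.const 1) (PT.const 0)).of_eq (fun x => by cases f x <;> rfl)

end Bool

@[fun_prop] theorem PT.ite {c : α → Prop} {i : ∀ x, Decidable (c x)} {f g : α → β}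
    (hc : PT fun x => @decide (c x) (i x)) (hf : PT f) (hg : PT g) :
    PT fun x => @ite _ (c x) (i x) (f x) (g x) :=
  (PT.cond hc hf hg).of_eq (fun x => by by_cases h : c x <;> simp [h])

/-! ### Basic list and option operations -/

section Basic
variable {l m : α → List β} {a : α → β} {o : α → Option β}

@[fun_prop] theorem PT.cons (ha : PT a) (hl : PT l) : PT fun x => a x :: l x :=
  (ha.pair hl).of_enc (fun _ => rfl)

@[fun_prop] theorem PT.tail (hl : PT l) : PT fun x => (l x).tail :=
  hl.enc'.right.of_enc (fun x => by cases l x <;> rfl)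

@[fun_prop] theorem PT.isEmpty (hl : PT l) : PT fun x => (l x).isEmpty :=
  hl.enc'.isNode.not.of_eq (fun x => by cases l x <;> rfl)

@[fun_prop] theorem PT.headD (hl : PT l) (ha : PT a) : PT fun x => (l x).headD (a x) :=
  (PT.branch hl.enc' hl.enc'.left ha.enc').of_enc (fun x => by cases l x <;> rfl)

@[fun_prop] theorem PT.head? (hl : PT l) : PT fun x => (l x).head? :=
  (PT.branch hl.enc' (hl.enc'.left.node (PT.const .nil)) (PT.const .nil)).of_enc
    (fun x => by cases l x <;> rfl)

@[fun_prop] theorem PT.some (ha : PT a) : PT fun x => some (a x) :=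
  (ha.enc'.node (PT.const .nil)).of_enc (fun _ => rfl)

@[fun_prop] theorem PT.toList (ho : PT o) : PT fun x => (o x).toList :=
  ho.of_enc (fun x => by cases o x <;> rfl)

@[fun_prop] theorem PT.isSome (ho : PT o) : PT fun x => (o x).isSome :=
  ho.enc'.isNode.of_eq (fun x => by cases o x <;> rfl)

@[fun_prop] theorem PT.isNone (ho : PT o) : PT fun x => (o x).isNone :=
  ho.isSome.not.of_eq (fun x => by cases o x <;> rfl)

@[fun_prop] theorem PT.optGetD (ho : PT o) (ha : PT a) : PT fun x => (o x).getD (a x) :=
  (ho.toList.headD ha).of_eq (fun x => by cases o x <;> rfl)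

lemma foldl_cons_eq {β : Type} (l m : List β) :
    l.foldl (fun s a => a :: s) m = l.reverse ++ m := by
  induction l generalizing m with
  | nil => rfl
  | cons a l ih => simp [ih]

theorem PT.revApp (hl : PT l) (hm : PT m) : PT fun x => (l x).reverse ++ m x :=
  (PT.foldl_add (F := fun _ s a => a :: s) (by fun_prop) hl hm hl.pb (fun x s a ha => by
    have := sz_lt_of_mem ha
    simp; omega)).of_eq (fun _ => (foldl_cons_eq _ _).symm)

@[fun_prop] theorem PT.reverse (hl : PT l) : PT fun x => (l x).reverse :=
  (hl.revApp (PT.const [])).of_eq (fun _ => by simp)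

@[fun_prop] theorem PT.append (hl : PT l) (hm : PT m) : PT fun x => l x ++ m x :=
  (hl.reverse.revApp hm).of_eq (fun _ => by simp)

@[fun_prop] theorem PT.concat (hl : PT l) (ha : PT a) : PT fun x => (l x).concat (a x) :=
  (hl.append (ha.cons (PT.const []))).of_eq (fun _ => by simp)

@[fun_prop] theorem PT.getLast? (hl : PT l) : PT fun x => (l x).getLast? :=
  hl.reverse.head?.of_eq (fun _ => by simp)

@[fun_prop] theorem PT.getLastD (hl : PT l) (ha : PT a) : PT fun x => (l x).getLastD (a x) :=
  (hl.getLast?.optGetD ha).of_eq (fun _ => List.getLastD_eq_getLast?)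

@[fun_prop] theorem PT.dropLast (hl : PT l) : PT fun x => (l x).dropLast :=
  hl.reverse.tail.reverse.of_eq (fun _ => by simp)

end Basic

/-! ### Equality -/

/-- One step of the comparison of two bit strings. -/
def eqStep (s : List Bool × Bool) (a : Bool) : List Bool × Bool :=
  (s.1.tail, s.2 && (!s.1.isEmpty && (bif a then s.1.headD false else !s.1.headD false)))

lemma eqStep_spec : ∀ (l m : List Bool) (k : Bool),
    ((l.foldl eqStep (m, k)).2 && (l.foldl eqStep (m, k)).1.isEmpty) = true ↔ (k = true ∧ l = m)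
  | [], m, k => by cases m <;> simp
  | a :: l, [], k => by
    rw [List.foldl_cons, eqStep, eqStep_spec]
    simp
  | a :: l, b :: m, k => by
    rw [List.foldl_cons, eqStep, eqStep_spec]
    cases a <;> cases b <;> simp

theorem PT.decide_iff' {p : α → Prop} {i : ∀ x, Decidable (p x)} {f : α → Bool} (hf : PT f)
    (h : ∀ x, p x ↔ f x = true) : PT fun x => @decide (p x) (i x) :=
  hf.of_eq (fun x => by simp [h x])

@[fun_prop] theorem PT.decide_eq {f g : α → β} {i : ∀ x, Decidable (f x = g x)}
    (hf : PT f) (hg : PT g) : PT fun x => @decide (f x = g x) (i x) := by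
  have h : PT fun x => (TM.bits (f x)).foldl eqStep (TM.bits (g x), true) :=
    PT.foldl_add (F := fun _ s a => eqStep s a) (by unfold eqStep; fun_prop) hf.bits (by fun_prop)
      (PB.const 3) (fun x s a _ => by
        have h1 := sz_le_of_sublist (List.tail_sublist s.1)
        have h2 := sz_bool_le (eqStep s a).2
        rw [sz_prod, sz_prod s]
        simp only [eqStep] at h2 ⊢
        omega)
  refine PT.decide_iff' (h.snd.and h.fst.isEmpty) (fun x => ?_)
  rw [eqStep_spec]
  simp [bits_inj.eq_iff]

@[fun_prop] theorem PT.beq [BEq β] [LawfulBEq β] {f g : α → β} (hf : PT f) (hg : PT g) :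
    PT fun x => f x == g x := by
  classical
  exact (PT.decide_eq hf hg).of_eq (fun x => beq_eq_decide _ _)

@[fun_prop] theorem PT.bne [BEq β] [LawfulBEq β] {f g : α → β} (hf : PT f) (hg : PT g) :
    PT fun x => f x != g x := (hf.beq hg).not

@[fun_prop] theorem PT.decide_ne {f g : α → β} {i : ∀ x, Decidable (f x ≠ g x)}
    (hf : PT f) (hg : PT g) : PT fun x => @decide (f x ≠ g x) (i x) := by
  classical
  exact PT.decide_iff' (hf.bne hg) (fun x => by simp)

section Logic
variable {p q : α → Prop}

@[fun_prop] theorem PT.decide_not {i : ∀ x, Decidable (¬ p x)}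
    (hp : PT fun x => @decide (p x) (Classical.propDecidable _)) :
    PT fun x => @decide (¬ p x) (i x) := PT.decide_iff' hp.not (fun x => by simp)

@[fun_prop] theorem PT.decide_and {i : ∀ x, Decidable (p x ∧ q x)}
    (hp : PT fun x => @decide (p x) (Classical.propDecidable _))
    (hq : PT fun x => @decide (q x) (Classical.propDecidable _)) :
    PT fun x => @decide (p x ∧ q x) (i x) := PT.decide_iff' (hp.and hq) (fun x => by simp)

@[fun_prop] theorem PT.decide_or {i : ∀ x, Decidable (p x ∨ q x)}
    (hp : PT fun x => @decide (p x) (Classical.propDecidable _))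
    (hq : PT fun x => @decide (q x) (Classical.propDecidable _)) :
    PT fun x => @decide (p x ∨ q x) (i x) := PT.decide_iff' (hp.or hq) (fun x => by simp)

@[fun_prop] theorem PT.decide_iff {i : ∀ x, Decidable (p x ↔ q x)}
    (hp : PT fun x => @decide (p x) (Classical.propDecidable _))
    (hq : PT fun x => @decide (q x) (Classical.propDecidable _)) :
    PT fun x => @decide (p x ↔ q x) (i x) := PT.decide_iff' (hp.beq hq) (fun x => by simp)

@[fun_prop] theorem PT.decide_imp {i : ∀ x, Decidable (p x → q x)}
    (hp : PT fun x => @decide (p x) (Classical.propDecidable _))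
    (hq : PT fun x => @decide (q x) (Classical.propDecidable _)) :
    PT fun x => @decide (p x → q x) (i x) :=
  PT.decide_iff' (hp.not.or hq) (fun x => by simp [imp_iff_not_or])

end Logic

/-! ### Natural numbers -/

section Nat
variable {f g : α → ℕ}

@[fun_prop] theorem PT.succ (hf : PT f) : PT fun x => (f x).succ :=
  ((PT.const Tr.nil).node hf.enc').of_enc (fun _ => rfl)

@[fun_prop] theorem PT.pred (hf : PT f) : PT fun x => (f x).pred :=
  hf.enc'.right.of_enc (fun x => by cases f x <;> rfl)

@[fun_prop] theorem PT.add (hf : PT f) (hg : PT g) : PT fun x => f x + g x :=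
  (PT.iterate_add (F := fun _ s => Nat.succ s) (by fun_prop) hg hf (PB.const 2)
    (fun x s => by simp; omega)).of_eq (fun x => by simp)

@[fun_prop] theorem PT.sub (hf : PT f) (hg : PT g) : PT fun x => f x - g x :=
  (PT.iterate_add (F := fun _ s => Nat.pred s) (by fun_prop) hg hf (PB.const 0)
    (fun x s => by simp)).of_eq (fun x => (Nat.pred_iterate _ _).symm)

lemma iterate_add_eq (a n : ℕ) : (fun s => s + a)^[n] 0 = n * a := by
  induction n with
  | zero => simp
  | succ n ih => rw [iterate_succ_apply', ih]; ring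

@[fun_prop] theorem PT.mul (hf : PT f) (hg : PT g) : PT fun x => f x * g x :=
  (PT.iterate_add (F := fun x s => s + g x) (by fun_prop) hf (PT.const 0)
    ((PB.const 2).mul hg.pb_nat) (fun x s => by simp; omega)).of_eq
      (fun x => (iterate_add_eq _ _).symm)

@[fun_prop] theorem PT.pow_const (hf : PT f) (k : ℕ) : PT fun x => f x ^ k := by
  induction k with
  | zero => exact (PT.const 1).of_eq (fun _ => pow_zero _)
  | succ k ih => exact (ih.mul hf).of_eq (fun _ => pow_succ _ _)

@[fun_prop] theorem PT.decide_le {i : ∀ x, Decidable (f x ≤ g x)} (hf : PT f) (hg : PT g) :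
    PT fun x => @decide (f x ≤ g x) (i x) :=
  PT.decide_iff' ((hf.sub hg).beq (PT.const 0)) (fun x => by simp [Nat.sub_eq_zero_iff_le])

@[fun_prop] theorem PT.decide_lt {i : ∀ x, Decidable (f x < g x)} (hf : PT f) (hg : PT g) :
    PT fun x => @decide (f x < g x) (i x) :=
  PT.decide_iff' (PT.decide_le (i := fun _ => inferInstance) hg hf).not (fun x => by simp)

@[fun_prop] theorem PT.decide_ge {i : ∀ x, Decidable (f x ≥ g x)} (hf : PT f) (hg : PT g) :
    PT fun x => @decide (f x ≥ g x) (i x) := PT.decide_le hg hf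

@[fun_prop] theorem PT.decide_gt {i : ∀ x, Decidable (f x > g x)} (hf : PT f) (hg : PT g) :
    PT fun x => @decide (f x > g x) (i x) := PT.decide_lt hg hf

@[fun_prop] theorem PT.ble (hf : PT f) (hg : PT g) : PT fun x => (f x).ble (g x) :=
  (PT.decide_le (i := fun _ => inferInstance) hf hg).of_eq (fun x => by
    rw [Bool.eq_iff_iff]; simp)

@[fun_prop] theorem PT.blt (hf : PT f) (hg : PT g) : PT fun x => (f x).blt (g x) :=
  (PT.decide_lt (i := fun _ => inferInstance) hf hg).of_eq (fun x => by
    rw [Bool.eq_iff_iff]; simp [Nat.blt_eq])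

@[fun_prop] theorem PT.max (hf : PT f) (hg : PT g) : PT fun x => max (f x) (g x) :=
  (PT.ite (PT.decide_le (i := fun _ => inferInstance) hf hg) hg hf).of_eq (fun _ => max_def _ _)

@[fun_prop] theorem PT.min (hf : PT f) (hg : PT g) : PT fun x => min (f x) (g x) :=
  (PT.ite (PT.decide_le (i := fun _ => inferInstance) hf hg) hf hg).of_eq (fun _ => min_def _ _)

lemma iterate_divmod (m n : ℕ) :
    (fun s : ℕ × ℕ => if s.2 + 1 = m then (s.1 + 1, 0) else (s.1, s.2 + 1))^[n] (0, 0) =
      (n / m, n % m) := by
  induction n with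
  | zero => simp
  | succ n ih =>
    rw [iterate_succ_apply', ih]
    rcases Nat.eq_zero_or_pos m with rfl | hm
    · simp
    have h1 := Nat.div_add_mod n m
    have h2 := Nat.mod_lt n hm
    split_ifs with h
    · have : n + 1 = m * (n / m + 1) + 0 := by dsimp only at h; rw [mul_add]; omega
      rw [this, Nat.mul_add_div hm, Nat.mul_add_mod]
      simp
    · dsimp only at h
      have : n + 1 = m * (n / m) + (n % m + 1) := by omega
      have h3 : n % m + 1 < m := by omega
      conv_rhs => rw [this, Nat.mul_add_div hm, Nat.mul_add_mod, Nat.div_eq_of_lt h3,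
        Nat.mod_eq_of_lt h3]
      simp

theorem PT.divmod (hf : PT f) (hg : PT g) : PT fun x => (f x / g x, f x % g x) :=
  (PT.iterate_add
    (F := fun x (s : ℕ × ℕ) => if s.2 + 1 = g x then (s.1 + 1, 0) else (s.1, s.2 + 1))
    (by fun_prop) hf (PT.const (0, 0)) (PB.const 2) (fun x s => by
      rw [sz_prod s]
      split_ifs <;> simp <;> omega)).of_eq (fun x => (iterate_divmod _ _).symm)

@[fun_prop] theorem PT.div (hf : PT f) (hg : PT g) : PT fun x => f x / g x := (hf.divmod hg).fst

@[fun_prop] theorem PT.mod (hf : PT f) (hg : PT g) : PT fun x => f x % g x := (hf.divmod hg).snd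

@[fun_prop] theorem PT.decide_dvd {i : ∀ x, Decidable (f x ∣ g x)} (hf : PT f) (hg : PT g) :
    PT fun x => @decide (f x ∣ g x) (i x) :=
  PT.decide_iff' ((hg.mod hf).beq (PT.const 0)) (fun x => by simp [Nat.dvd_iff_mod_eq_zero])

end Nat

/-! ### Lists -/

section Lists
variable {l m : α → List β} {a : α → β} {n k : α → ℕ}

@[fun_prop] theorem PT.length (hl : PT l) : PT fun x => (l x).length :=
  (PT.foldl_add (F := fun _ (s : ℕ) _ => s.succ) (by fun_prop) hl (PT.const 0) (PB.const 2)
    (fun x s a _ => by simp; omega)).of_eq (fun x => by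
      rw [List.foldl_const, Nat.succ_iterate, zero_add])

@[fun_prop] theorem PT.sz {f : α → β} (hf : PT f) : PT fun x => sz (f x) := hf.bits.length

lemma iterate_tail {β : Type} (l : List β) (n : ℕ) : List.tail^[n] l = l.drop n := by
  induction n with
  | zero => rfl
  | succ n ih => rw [iterate_succ_apply', ih, List.tail_drop]

@[fun_prop] theorem PT.drop (hn : PT n) (hl : PT l) : PT fun x => (l x).drop (n x) :=
  (PT.iterate_add (F := fun _ (s : List β) => s.tail) (by fun_prop) hn hl (PB.const 0)
    (fun x s => sz_le_of_sublist (List.tail_sublist s))).of_eq (fun _ => (iterate_tail _ _).symm)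

@[fun_prop] theorem PT.take (hn : PT n) (hl : PT l) : PT fun x => (l x).take (n x) :=
  (PT.drop (hl.length.sub hn) hl.reverse).reverse.of_eq (fun x => by
    rw [List.drop_reverse, List.reverse_reverse]
    rcases le_total (n x) (l x).length with h | h
    · rw [Nat.sub_sub_self h]
    · rw [List.take_of_length_le h, List.take_of_length_le (by omega)])

lemma iterate_cons {β : Type} (a : β) (n : ℕ) : (fun s => a :: s)^[n] [] = List.replicate n a := by
  induction n with
  | zero => rfl
  | succ n ih => rw [iterate_succ_apply', ih, List.replicate_succ]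

@[fun_prop] theorem PT.replicate (hn : PT n) (ha : PT a) :
    PT fun x => List.replicate (n x) (a x) :=
  (PT.iterate_add (F := fun x s => a x :: s) (by fun_prop) hn (PT.const [])
    (ha.pb.add (PB.const 1)) (fun x s => by simp; omega)).of_eq (fun _ => (iterate_cons _ _).symm)

lemma iterate_range (n : ℕ) :
    (fun s : List ℕ => s ++ [s.length])^[n] [] = List.range n := by
  induction n with
  | zero => rfl
  | succ n ih => rw [iterate_succ_apply', ih, List.range_succ, List.length_range]

@[fun_prop] theorem PT.range (hn : PT n) : PT fun x => List.range (n x) := by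
  obtain ⟨P, hP⟩ := (hn.pb_nat.mul (((PB.const 2).mul hn.pb_nat).add (PB.const 2))).add (PB.const 1)
  refine (PT.iterate (F := fun _ (s : List ℕ) => s ++ [s.length]) (by fun_prop) hn (PT.const [])
    ⟨P, fun x k hk => le_trans ?_ (hP x)⟩).of_eq (fun _ => (iterate_range _).symm)
  rw [iterate_range]
  have := sz_list_le (l := List.range k) (B := 2 * n x + 1) (fun a ha => by
    simp at ha ⊢; omega)
  rw [List.length_range] at this
  have h2 : k * (2 * n x + 1 + 1) ≤ n x * (2 * n x + 2) := Nat.mul_le_mul_right _ hk
  beta_reduce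
  omega

@[fun_prop] theorem PT.getElem? (hl : PT l) (hn : PT n) : PT fun x => (l x)[n x]? :=
  (PT.drop hn hl).head?.of_eq (fun _ => by simp)

@[fun_prop] theorem PT.getD (hl : PT l) (hn : PT n) (ha : PT a) :
    PT fun x => (l x).getD (n x) (a x) :=
  ((hl.getElem? hn).optGetD ha).of_eq (fun _ => by simp)

@[fun_prop] theorem PT.rotate (hl : PT l) (hn : PT n) : PT fun x => (l x).rotate (n x) :=
  ((PT.drop (hn.mod hl.length) hl).append (PT.take (hn.mod hl.length) hl)).of_eq
    (fun _ => List.rotate_eq_drop_append_take_mod)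

@[fun_prop] theorem PT.eraseIdx (hl : PT l) (hn : PT n) : PT fun x => (l x).eraseIdx (n x) :=
  ((PT.take hn hl).append (PT.drop (hn.add (PT.const 1)) hl)).of_eq
    (fun _ => List.eraseIdx_eq_take_drop_succ _ _)

@[fun_prop] theorem PT.set (hl : PT l) (hn : PT n) (ha : PT a) :
    PT fun x => (l x).set (n x) (a x) :=
  (PT.ite (PT.decide_lt (i := fun _ => inferInstance) hn hl.length)
    ((PT.take hn hl).append (ha.cons (PT.drop (hn.add (PT.const 1)) hl))) hl).of_eq
    (fun _ => List.set_eq_take_append_cons_drop)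

@[fun_prop] theorem PT.decide_prefix {i : ∀ x, Decidable (l x <+: m x)} (hl : PT l) (hm : PT m) :
    PT fun x => @decide (l x <+: m x) (i x) := by
  classical
  exact PT.decide_iff' (hl.beq (PT.take hl.length hm))
    (fun x => by simp [List.prefix_iff_eq_take])

@[fun_prop] theorem PT.decide_suffix {i : ∀ x, Decidable (l x <:+ m x)} (hl : PT l) (hm : PT m) :
    PT fun x => @decide (l x <:+ m x) (i x) := by
  classical
  exact PT.decide_iff' (PT.decide_prefix (i := fun _ => inferInstance) hl.reverse hm.reverse)
    (fun x => by simp)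

@[fun_prop] theorem PT.isPrefixOf [BEq β] [LawfulBEq β] (hl : PT l) (hm : PT m) :
    PT fun x => (l x).isPrefixOf (m x) := by
  classical
  exact (PT.decide_prefix (i := fun _ => inferInstance) hl hm).of_eq
    (fun x => by rw [Bool.eq_iff_iff]; simp)

@[fun_prop] theorem PT.isSuffixOf [BEq β] [LawfulBEq β] (hl : PT l) (hm : PT m) :
    PT fun x => (l x).isSuffixOf (m x) := by
  classical
  exact (PT.decide_suffix (i := fun _ => inferInstance) hl hm).of_eq
    (fun x => by rw [Bool.eq_iff_iff]; simp)

end Lists

/-! ### Binders -/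

section Binders
variable {l : γ → List α}

lemma PT.pb_mem {F : γ → α → β} (hF : PT fun p : γ × α => F p.1 p.2) (hl : PT l) :
    ∃ G : γ → ℕ, PB G ∧ ∀ x a, a ∈ l x → TM.sz (F x a) ≤ G x := by
  obtain ⟨P, hP⟩ := hF.size
  refine ⟨fun x => P.eval (TM.sz x + TM.sz (l x) + 1), ((PB.sz.add hl.pb).add (PB.const 1)).poly P,
    fun x a ha => (hP (x, a)).trans (poly_mono P ?_)⟩
  have := sz_le_of_mem ha
  simp; omega

lemma foldl_append_eq {α β : Type} (f : α → List β) (l : List α) (m : List β) :
    l.foldl (fun s a => s ++ f a) m = m ++ l.flatMap f := by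
  induction l generalizing m with
  | nil => simp
  | cons a l ih => simp [ih]

@[fun_prop] theorem PT.flatMap {F : γ → α → List β} (hF : PT fun p : γ × α => F p.1 p.2)
    (hl : PT l) : PT fun x => (l x).flatMap (F x) := by
  obtain ⟨G, hG, h⟩ := hF.pb_mem hl
  have h2 := hF.comp (g := fun p : γ × List β × α => (p.1, p.2.2)) (by fun_prop)
  refine (PT.foldl_add (F := fun x s a => s ++ F x a) (PT.append (by fun_prop) h2) hl
    (PT.const []) hG (fun x s a ha => ?_)).of_eq (fun x => by rw [foldl_append_eq, List.nil_append])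
  have := h x a ha
  have := sz_append s (F x a)
  omega

@[fun_prop] theorem PT.map {F : γ → α → β} (hF : PT fun p : γ × α => F p.1 p.2)
    (hl : PT l) : PT fun x => (l x).map (F x) :=
  (PT.flatMap (F := fun x a => [F x a]) (hF.cons (PT.const [])) hl).of_eq
    (fun _ => List.map_eq_flatMap)

@[fun_prop] theorem PT.filterMap {F : γ → α → Option β} (hF : PT fun p : γ × α => F p.1 p.2)
    (hl : PT l) : PT fun x => (l x).filterMap (F x) :=
  (PT.flatMap (F := fun x a => (F x a).toList) hF.toList hl).of_eq
    (fun _ => List.filterMap_eq_flatMap_toList _ _)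

@[fun_prop] theorem PT.flatten {l : γ → List (List α)} (hl : PT l) : PT fun x => (l x).flatten :=
  (PT.flatMap (F := fun _ a => a) (by fun_prop) hl).of_eq (fun _ => by simp)

variable {F : γ → α → Bool}

@[fun_prop] theorem PT.filter (hF : PT fun p : γ × α => F p.1 p.2)
    (hl : PT l) : PT fun x => (l x).filter (F x) :=
  (PT.flatMap (F := fun x a => bif F x a then [a] else []) (PT.cond hF (by fun_prop) (by fun_prop))
    hl).of_eq (fun x => by
      induction l x with
      | nil => rfl
      | cons a m ih => rw [List.filter_cons, List.flatMap_cons, ← ih]; cases F x a <;> simp)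

@[fun_prop] theorem PT.any (hF : PT fun p : γ × α => F p.1 p.2)
    (hl : PT l) : PT fun x => (l x).any (F x) :=
  (hF.filter hl).isEmpty.not.of_eq (fun x => by
    rw [Bool.eq_iff_iff]; simp [List.filter_eq_nil_iff])

@[fun_prop] theorem PT.all (hF : PT fun p : γ × α => F p.1 p.2)
    (hl : PT l) : PT fun x => (l x).all (F x) :=
  (PT.any (F := fun x a => !F x a) hF.not hl).not.of_eq (fun x => by
    rw [Bool.eq_iff_iff]; simp)

@[fun_prop] theorem PT.find? (hF : PT fun p : γ × α => F p.1 p.2)
    (hl : PT l) : PT fun x => (l x).find? (F x) :=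
  (hF.filter hl).head?.of_eq (fun x => by simp)

@[fun_prop] theorem PT.countP (hF : PT fun p : γ × α => F p.1 p.2)
    (hl : PT l) : PT fun x => (l x).countP (F x) :=
  (hF.filter hl).length.of_eq (fun _ => List.countP_eq_length_filter)

lemma foldl_findIdx {α : Type} (p : α → Bool) (l : List α) (n : ℕ) :
    l.foldl (fun (s : ℕ × Bool) a => bif s.2 || p a then (s.1, true) else (s.1 + 1, false))
      (n, false) = (n + l.findIdx p, l.any p) := by
  have h0 : ∀ (l : List α) (n : ℕ),
      l.foldl (fun (s : ℕ × Bool) a => bif s.2 || p a then (s.1, true) else (s.1 + 1, false))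
        (n, true) = (n, true) := by
    intro l n
    induction l with
    | nil => rfl
    | cons a l ih => simpa using ih
  induction l generalizing n with
  | nil => rfl
  | cons a l ih =>
    rw [List.foldl_cons, List.findIdx_cons, List.any_cons]
    cases h : p a
    · simp only [Bool.or_self, cond_false, ih, Bool.false_or]
      congr 1; omega
    · simp only [Bool.or_true, cond_true, h0, Bool.true_or, add_zero]

@[fun_prop] theorem PT.findIdx (hF : PT fun p : γ × α => F p.1 p.2)
    (hl : PT l) : PT fun x => (l x).findIdx (F x) := by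
  have h2 := hF.comp (g := fun p : γ × (ℕ × Bool) × α => (p.1, p.2.2)) (by fun_prop)
  refine (PT.foldl_add
    (F := fun x (s : ℕ × Bool) a => bif s.2 || F x a then (s.1, true) else (s.1 + 1, false))
    (PT.cond (PT.or (by fun_prop) h2) (by fun_prop) (by fun_prop)) hl (PT.const (0, false))
    (PB.const 2) (fun x s a _ => ?_)).fst.of_eq (fun x => by rw [foldl_findIdx]; simp)
  have := sz_pos s.2
  rw [sz_prod s]
  cases (s.2 || F x a) <;> simp <;> omega

lemma takeWhile_eq_take_findIdx {α : Type} (p : α → Bool) (l : List α) :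
    l.takeWhile p = l.take (l.findIdx fun a => !p a) := by
  induction l with
  | nil => rfl
  | cons a l ih => rw [List.takeWhile_cons, List.findIdx_cons]; cases p a <;> simp [ih]

lemma dropWhile_eq_drop_findIdx {α : Type} (p : α → Bool) (l : List α) :
    l.dropWhile p = l.drop (l.findIdx fun a => !p a) := by
  induction l with
  | nil => rfl
  | cons a l ih => rw [List.dropWhile_cons, List.findIdx_cons]; cases p a <;> simp [ih]

@[fun_prop] theorem PT.takeWhile (hF : PT fun p : γ × α => F p.1 p.2)
    (hl : PT l) : PT fun x => (l x).takeWhile (F x) :=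
  (PT.take (PT.findIdx (F := fun x a => !F x a) hF.not hl) hl).of_eq
    (fun _ => takeWhile_eq_take_findIdx _ _)

@[fun_prop] theorem PT.dropWhile (hF : PT fun p : γ × α => F p.1 p.2)
    (hl : PT l) : PT fun x => (l x).dropWhile (F x) :=
  (PT.drop (PT.findIdx (F := fun x a => !F x a) hF.not hl) hl).of_eq
    (fun _ => dropWhile_eq_drop_findIdx _ _)

@[fun_prop] theorem PT.decide_ex_mem {p : γ → α → Prop} {i : ∀ x, Decidable (∃ a ∈ l x, p x a)}
    (hp : PT fun q : γ × α => @decide (p q.1 q.2) (Classical.propDecidable _)) (hl : PT l) :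
    PT fun x => @decide (∃ a ∈ l x, p x a) (i x) :=
  PT.decide_iff' (PT.any (F := fun x a => @decide (p x a) (Classical.propDecidable _)) hp hl)
    (fun x => by simp)

@[fun_prop] theorem PT.decide_all_mem {p : γ → α → Prop} {i : ∀ x, Decidable (∀ a ∈ l x, p x a)}
    (hp : PT fun q : γ × α => @decide (p q.1 q.2) (Classical.propDecidable _)) (hl : PT l) :
    PT fun x => @decide (∀ a ∈ l x, p x a) (i x) :=
  PT.decide_iff' (PT.all (F := fun x a => @decide (p x a) (Classical.propDecidable _)) hp hl)
    (fun x => by simp)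

@[fun_prop] theorem PT.decide_ex_lt {n : γ → ℕ} {p : γ → ℕ → Prop}
    {i : ∀ x, Decidable (∃ a < n x, p x a)}
    (hp : PT fun q : γ × ℕ => @decide (p q.1 q.2) (Classical.propDecidable _)) (hn : PT n) :
    PT fun x => @decide (∃ a < n x, p x a) (i x) :=
  PT.decide_iff' (PT.any (F := fun x a => @decide (p x a) (Classical.propDecidable _)) hp hn.range)
    (fun x => by simp)

@[fun_prop] theorem PT.decide_all_lt {n : γ → ℕ} {p : γ → ℕ → Prop}
    {i : ∀ x, Decidable (∀ a < n x, p x a)}
    (hp : PT fun q : γ × ℕ => @decide (p q.1 q.2) (Classical.propDecidable _)) (hn : PT n) :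
    PT fun x => @decide (∀ a < n x, p x a) (i x) :=
  PT.decide_iff' (PT.all (F := fun x a => @decide (p x a) (Classical.propDecidable _)) hp hn.range)
    (fun x => by simp)

end Binders

/-! ### Further list operations -/

section More
variable {l m : α → List β} {a : α → β} {n k : α → ℕ}

@[fun_prop] theorem PT.decide_mem {i : ∀ x, Decidable (a x ∈ l x)} (ha : PT a) (hl : PT l) :
    PT fun x => @decide (a x ∈ l x) (i x) := by
  classical
  exact PT.decide_iff' (PT.any (F := fun x b => b == a x) (by fun_prop) hl) (fun x => by simp)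

@[fun_prop] theorem PT.decide_notMem {i : ∀ x, Decidable (a x ∉ l x)} (ha : PT a) (hl : PT l) :
    PT fun x => @decide (a x ∉ l x) (i x) := PT.decide_not (PT.decide_mem ha hl)

@[fun_prop] theorem PT.contains [BEq β] [LawfulBEq β] (hl : PT l) (ha : PT a) :
    PT fun x => (l x).contains (a x) := by
  classical
  exact (PT.decide_mem (i := fun _ => inferInstance) ha hl).of_eq
    (fun x => by rw [Bool.eq_iff_iff]; simp)

@[fun_prop] theorem PT.elem [BEq β] [LawfulBEq β] (ha : PT a) (hl : PT l) :
    PT fun x => (l x).elem (a x) := hl.contains ha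

@[fun_prop] theorem PT.count [BEq β] [LawfulBEq β] (ha : PT a) (hl : PT l) :
    PT fun x => (l x).count (a x) :=
  (PT.countP (F := fun x b => b == a x) (by fun_prop) hl).of_eq (fun _ => rfl)

@[fun_prop] theorem PT.idxOf [BEq β] [LawfulBEq β] (ha : PT a) (hl : PT l) :
    PT fun x => (l x).idxOf (a x) :=
  (PT.findIdx (F := fun x b => b == a x) (by fun_prop) hl).of_eq (fun _ => rfl)

@[fun_prop] theorem PT.erase [BEq β] [LawfulBEq β] (hl : PT l) (ha : PT a) :
    PT fun x => (l x).erase (a x) :=
  (hl.eraseIdx (ha.idxOf hl)).of_eq (fun _ => List.erase_eq_eraseIdx_of_idxOf rfl)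

@[fun_prop] theorem PT.tails (hl : PT l) : PT fun x => (l x).tails :=
  (PT.map (F := fun x i => (l x).drop i) (by fun_prop) (hl.length.add (PT.const 1)).range).of_eq
    (fun x => by
      apply List.ext_getElem
      · simp
      · intro i h1 h2; simp)

@[fun_prop] theorem PT.inits (hl : PT l) : PT fun x => (l x).inits :=
  (PT.map (F := fun x i => (l x).take i) (by fun_prop) (hl.length.add (PT.const 1)).range).of_eq
    (fun x => by
      apply List.ext_getElem
      · simp
      · intro i h1 h2; simp)

@[fun_prop] theorem PT.decide_infix {i : ∀ x, Decidable (l x <:+: m x)} (hl : PT l) (hm : PT m) :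
    PT fun x => @decide (l x <:+: m x) (i x) := by
  classical
  exact PT.decide_iff' (PT.any (F := fun x t => decide (l x <+: t)) (by fun_prop) hm.tails)
    (fun x => by simp [List.infix_iff_prefix_suffix, and_comm])

@[fun_prop] theorem PT.decide_subset {i : ∀ x, Decidable (l x ⊆ m x)} (hl : PT l) (hm : PT m) :
    PT fun x => @decide (l x ⊆ m x) (i x) := by
  classical
  exact PT.decide_iff' (PT.all (F := fun x b => decide (b ∈ m x)) (by fun_prop) hl)
    (fun x => by simp [List.subset_def])

@[fun_prop] theorem PT.range' (hn : PT n) (hk : PT k) : PT fun x => List.range' (n x) (k x) :=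
  (PT.map (F := fun x i => n x + i) (by fun_prop) hk.range).of_eq
    (fun _ => List.range'_eq_map_range)

@[fun_prop] theorem PT.sum {l : α → List ℕ} (hl : PT l) : PT fun x => (l x).sum :=
  (PT.foldl_add (F := fun _ (s : ℕ) b => s + b) (by fun_prop) hl (PT.const 0) hl.pb
    (fun x s b hb => by
      have := sz_le_of_mem hb
      simp at this ⊢; omega)).of_eq (fun _ => List.sum_eq_foldl)

/-- Right folds. -/
theorem PT.foldr {F : γ → α → β → β} {l : γ → List α} {b : γ → β}
    (hF : PT fun p : γ × β × α => F p.1 p.2.2 p.2.1) (hl : PT l) (hb : PT b)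
    (bound : ∃ P : Polynomial ℕ, ∀ x k,
      TM.sz (((l x).drop k).foldr (F x) (b x)) ≤ P.eval (TM.sz x)) :
    PT fun x => (l x).foldr (F x) (b x) := by
  obtain ⟨P, hP⟩ := bound
  refine (PT.foldl (F := fun x s a => F x a s) hF hl.reverse hb ⟨P, fun x k => ?_⟩).of_eq
    (fun _ => by simp)
  rw [List.take_reverse, List.foldl_reverse]
  exact hP x _

theorem PT.foldr_add {F : γ → α → β → β} {l : γ → List α} {b : γ → β}
    (hF : PT fun p : γ × β × α => F p.1 p.2.2 p.2.1) (hl : PT l) (hb : PT b)
    {G : γ → ℕ} (hG : PB G) (hs : ∀ x s a, a ∈ l x → TM.sz (F x a s) ≤ TM.sz s + G x) :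
    PT fun x => (l x).foldr (F x) (b x) :=
  (PT.foldl_add (F := fun x s a => F x a s) hF hl.reverse hb hG
    (fun x s a ha => hs x s a (by simpa using ha))).of_eq (fun _ => by simp)

@[fun_prop] theorem PT.foldl_max {l : α → List ℕ} (hn : PT n) (hl : PT l) :
    PT fun x => (l x).foldl Max.max (n x) :=
  PT.foldl_add (F := fun _ (s : ℕ) b => Max.max s b) (by fun_prop) hl hn hl.pb
    (fun x s b hb => by
      have := sz_le_of_mem hb
      simp at this ⊢; omega)

@[fun_prop] theorem PT.foldr_max {l : α → List ℕ} (hn : PT n) (hl : PT l) :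
    PT fun x => (l x).foldr Max.max (n x) :=
  PT.foldr_add (F := fun _ b (s : ℕ) => Max.max b s) (by fun_prop) hl hn hl.pb
    (fun x s b hb => by
      have := sz_le_of_mem hb
      simp at this ⊢; omega)

@[fun_prop] theorem PT.optMap {o : γ → Option α} {F : γ → α → β}
    (hF : PT fun p : γ × α => F p.1 p.2) (ho : PT o) : PT fun x => (o x).map (F x) :=
  (hF.map ho.toList).head?.of_eq (fun x => by cases o x <;> rfl)

@[fun_prop] theorem PT.optBind {o : γ → Option α} {F : γ → α → Option β}
    (ho : PT o) (hF : PT fun p : γ × α => F p.1 p.2) : PT fun x => (o x).bind (F x) :=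
  (hF.filterMap ho.toList).head?.of_eq (fun x => by
    cases o x with
    | none => rfl
    | some a => cases h : F x a <;> simp [h])

@[fun_prop] theorem PT.optElim {o : γ → Option α} {b : γ → β} {F : γ → α → β}
    (ho : PT o) (hb : PT b) (hF : PT fun p : γ × α => F p.1 p.2) :
    PT fun x => (o x).elim (b x) (F x) :=
  ((hF.optMap ho).optGetD hb).of_eq (fun x => by cases o x <;> rfl)

@[fun_prop] theorem PT.optOr {o o' : α → Option β} (ho : PT o) (ho' : PT o') :
    PT fun x => (o x).or (o' x) :=
  (PT.cond ho.isSome ho ho').of_eq (fun x => by cases o x <;> rfl)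

/-- Case distinction on a list. -/
theorem PT.listCases {l : γ → List α} {b : γ → β} {F : γ → α → List α → β} {G : γ → β}
    (hl : PT l) (hb : PT b) (hF : PT fun p : γ × α × List α => F p.1 p.2.1 p.2.2)
    (h0 : ∀ x, l x = [] → G x = b x) (h1 : ∀ x a t, l x = a :: t → G x = F x a t) : PT G :=
  (PT.optElim (F := fun x a => F x a (l x).tail) hl.head? hb
    (hF.comp (g := fun p : γ × α => (p.1, p.2, (l p.1).tail)) (by fun_prop))).of_eq (fun x => by
      cases h : l x with
      | nil => exact h0 x h
      | cons a t => exact h1 x a t h)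

@[fun_prop] theorem PT.zipWith {l : γ → List α} {m : γ → List β} {F : γ → α → β → δ}
    (hF : PT fun p : γ × α × β => F p.1 p.2.1 p.2.2) (hl : PT l) (hm : PT m) :
    PT fun x => List.zipWith (F x) (l x) (m x) := by
  have h2 := hF.comp (g := fun p : ((γ × ℕ) × α) × β => (p.1.1.1, p.1.2, p.2)) (by fun_prop)
  have h3 : PT fun p : (γ × ℕ) × α => ((m p.1.1)[p.1.2]?).map (F p.1.1 p.2) :=
    PT.optMap (F := fun (p : (γ × ℕ) × α) b => F p.1.1 p.2 b) h2 (by fun_prop)
  have h4 : PT fun p : γ × ℕ => ((l p.1)[p.2]?).bind fun a => ((m p.1)[p.2]?).map (F p.1 a) :=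
    PT.optBind (F := fun (p : γ × ℕ) a => ((m p.1)[p.2]?).map (F p.1 a)) (by fun_prop) h3
  refine (PT.filterMap (F := fun x i => ((l x)[i]?).bind fun a => ((m x)[i]?).map (F x a)) h4
    hl.length.range).of_eq (fun x => ?_)
  generalize l x = l, m x = m
  induction l generalizing m with
  | nil => simp
  | cons a l ih =>
    cases m with
    | nil => simp
    | cons b m =>
      rw [List.length_cons, List.range_succ_eq_map, List.zipWith_cons_cons, ih]
      simp [List.filterMap_map]

@[fun_prop] theorem PT.zip {m : α → List γ} (hl : PT l) (hm : PT m) :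
    PT fun x => (l x).zip (m x) :=
  PT.zipWith (F := fun _ a b => (a, b)) (by fun_prop) hl hm

@[fun_prop] theorem PT.zipIdx (hl : PT l) (hn : PT n) : PT fun x => (l x).zipIdx (n x) :=
  (hl.zip (PT.range' hn hl.length)).of_eq (fun _ => List.zipIdx_eq_zip_range')

@[fun_prop] theorem PT.product {m : α → List γ} (hl : PT l) (hm : PT m) :
    PT fun x => (l x).product (m x) :=
  PT.flatMap (F := fun x a => (m x).map (Prod.mk a)) (by fun_prop) hl

@[fun_prop] theorem PT.sprod {m : α → List γ} (hl : PT l) (hm : PT m) :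
    PT fun x => l x ×ˢ m x := hl.product hm

@[fun_prop] theorem PT.dedup [DecidableEq β] (hl : PT l) : PT fun x => (l x).dedup := by
  refine (PT.foldr_add (F := fun _ a (s : List β) => if a ∈ s then s else a :: s) (by fun_prop) hl
    (PT.const []) hl.pb (fun x s a ha => ?_)).of_eq (fun x => ?_)
  · have := sz_lt_of_mem ha
    split_ifs
    · simp
    · simp; omega
  · induction l x with
    | nil => rfl
    | cons a t ih =>
      rw [List.foldr_cons, ← ih]
      by_cases h : a ∈ t
      · simp [h]
      · simp [h]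

@[fun_prop] theorem PT.orderedInsert {r : β → β → Prop} [DecidableRel r]
    (hr : PT fun p : β × β => decide (r p.1 p.2)) (ha : PT a) (hl : PT l) :
    PT fun x => (l x).orderedInsert r (a x) := by
  have h2 := (hr.comp (g := fun p : α × β => (a p.1, p.2)) (by fun_prop)).not
  refine ((PT.takeWhile (F := fun x b => !decide (r (a x) b)) h2 hl).append
    (ha.cons (PT.dropWhile (F := fun x b => !decide (r (a x) b)) h2 hl))).of_eq (fun x => ?_)
  rw [List.orderedInsert_eq_take_drop]
  simp

@[fun_prop] theorem PT.insertionSort {r : β → β → Prop} [DecidableRel r]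
    (hr : PT fun p : β × β => decide (r p.1 p.2)) (hl : PT l) :
    PT fun x => (l x).insertionSort r := by
  refine (PT.foldr_add (F := fun _ a (s : List β) => s.orderedInsert r a)
    (PT.orderedInsert hr (by fun_prop) (by fun_prop)) hl
    (PT.const []) hl.pb (fun x s a ha => ?_)).of_eq (fun x => ?_)
  · have := sz_lt_of_mem ha
    rw [sz_perm (List.perm_orderedInsert r a s)]
    simp; omega
  · induction l x with
    | nil => rfl
    | cons a t ih => rw [List.foldr_cons, ← ih, List.insertionSort_cons]

end More

end Vale.Agent.TM
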