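import Mathlib

/-! Binary trees, their prefix codes as bit strings, and encodings of data types as trees. -/

namespace Vale.Agent.TM

/-- Binary trees. -/
inductive Tr
  | nil
  | node (l r : Tr)

/-- The prefix code of a tree as a bit string. -/
def Tr.code : Tr → List Bool
  | .nil => [false]
  | .node l r => true :: (l.code ++ r.code)

/-- An injective encoding of a type by binary trees. -/
class Enc (α : Type) where
  enc : α → Tr
  inj : Function.Injective enc

/-- Tree code of a bit. -/
def encBool : Bool → Tr
  | false => .nil
  | true => .node .nil .nil

theorem encBool_inj : Function.Injective encBool := by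
  intro a b h
  cases a <;> cases b <;> simp_all [encBool]

/-- Unary tree code of a natural number. -/
def encNat : ℕ → Tr
  | 0 => .nil
  | n + 1 => .node .nil (encNat n)

theorem encNat_inj : Function.Injective encNat := by
  intro a
  induction a with
  | zero => intro b h; cases b <;> simp_all [encNat]
  | succ a ih =>
    intro b h
    cases b with
    | zero => simp [encNat] at h
    | succ b =>
      simp only [encNat, Tr.node.injEq, true_and] at h
      rw [ih h]

/-- Tree code of a pair. -/
def encProd {α β : Type} (e : α → Tr) (f : β → Tr) (p : α × β) : Tr := .node (e p.1) (f p.2)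

theorem encProd_inj {α β : Type} {e : α → Tr} {f : β → Tr} (he : Function.Injective e)
    (hf : Function.Injective f) : Function.Injective (encProd e f) := by
  intro a b h
  simp only [encProd, Tr.node.injEq] at h
  exact Prod.ext (he h.1) (hf h.2)

/-- Tree code of a list. -/
def encList {α : Type} (e : α → Tr) : List α → Tr
  | [] => .nil
  | x :: xs => .node (e x) (encList e xs)

theorem encList_inj {α : Type} {e : α → Tr} (he : Function.Injective e) :
    Function.Injective (encList e) := by
  intro a
  induction a with
  | nil => intro b h; cases b <;> simp_all [encList]
  | cons x a ih =>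
    intro b h
    cases b with
    | nil => simp [encList] at h
    | cons y b =>
      simp only [encList, Tr.node.injEq] at h
      rw [he h.1, ih h.2]

/-- Tree code of an optional value. -/
def encOption {α : Type} (e : α → Tr) : Option α → Tr
  | none => .nil
  | some x => .node (e x) .nil

theorem encOption_inj {α : Type} {e : α → Tr} (he : Function.Injective e) :
    Function.Injective (encOption e) := by
  intro a b h
  cases a <;> cases b <;> simp_all [encOption]
  exact he h

theorem encUnit_inj : Function.Injective (fun _ : Unit => Tr.nil) := fun _ _ _ => rfl

instance instEncTr : Enc Tr := ⟨id, Function.injective_id⟩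
instance instEncBool : Enc Bool := ⟨encBool, encBool_inj⟩
instance instEncNat : Enc ℕ := ⟨encNat, encNat_inj⟩
instance instEncUnit : Enc Unit := ⟨fun _ => .nil, encUnit_inj⟩
instance instEncProd {α β : Type} [Enc α] [Enc β] : Enc (α × β) :=
  ⟨encProd Enc.enc Enc.enc, encProd_inj Enc.inj Enc.inj⟩
instance instEncList {α : Type} [Enc α] : Enc (List α) := ⟨encList Enc.enc, encList_inj Enc.inj⟩
instance instEncOption {α : Type} [Enc α] : Enc (Option α) :=
  ⟨encOption Enc.enc, encOption_inj Enc.inj⟩

/-- The bit string coding a value. -/
def bits {α : Type} [Enc α] (x : α) : List Bool := (Enc.enc x).code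

/-- The size of a value: the length of its code. -/
def sz {α : Type} [Enc α] (x : α) : ℕ := (Enc.enc x).code.length

end Vale.Agent.TM
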