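import Vale.Agent.TM.Cmd
import Vale.Agent.TM.Enc

/-! Polynomial-time functions on encoded types: the stack machine and the primitives. -/

namespace Vale.Agent.TM

open Turing Function

/-- State with data stack `d`, counter `c` and scratch stacks `a`, `b`. -/
def st (d c a b : List Bool) : St :=
  fun k => if k = 0 then d else if k = 1 then c else if k = 2 then a else if k = 3 then b else []

@[simp] lemma st0 (d c a b) : st d c a b 0 = d := rfl
@[simp] lemma st1 (d c a b) : st d c a b 1 = c := rfl
@[simp] lemma st2 (d c a b) : st d c a b 2 = a := rfl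
@[simp] lemma st3 (d c a b) : st d c a b 3 = b := rfl

lemma upd0 (d c a b l) : update (st d c a b) 0 l = st l c a b := by
  funext k; by_cases h : k = 0 <;> simp [st, h]
lemma upd1 (d c a b l) : update (st d c a b) 1 l = st d l a b := by
  funext k; by_cases h : k = 1 <;> simp [st, h]
lemma upd2 (d c a b l) : update (st d c a b) 2 l = st d c l b := by
  funext k; by_cases h : k = 2 <;> simp [st, h]
lemma upd3 (d c a b l) : update (st d c a b) 3 l = st d c a l := by
  funext k; by_cases h : k = 3 <;> simp [st, h]

lemma push0 (x d c a b) : Exec (.push 0 x) (st d c a b) (st (x :: d) c a b) 0 := by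
  simpa only [upd0, st0] using Exec.push 0 x (st d c a b)
lemma push1 (x d c a b) : Exec (.push 1 x) (st d c a b) (st d (x :: c) a b) 0 := by
  simpa only [upd1, st1] using Exec.push 1 x (st d c a b)
lemma push2 (x d c a b) : Exec (.push 2 x) (st d c a b) (st d c (x :: a) b) 0 := by
  simpa only [upd2, st2] using Exec.push 2 x (st d c a b)
lemma push3 (x d c a b) : Exec (.push 3 x) (st d c a b) (st d c a (x :: b)) 0 := by
  simpa only [upd3, st3] using Exec.push 3 x (st d c a b)
lemma pop0 (x d c a b) : Exec (.pop 0) (st (x :: d) c a b) (st d c a b) 0 := by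
  simpa only [upd0, st0, List.tail_cons] using Exec.pop 0 (st (x :: d) c a b)
lemma pop1 (x d c a b) : Exec (.pop 1) (st d (x :: c) a b) (st d c a b) 0 := by
  simpa only [upd1, st1, List.tail_cons] using Exec.pop 1 (st d (x :: c) a b)
lemma pop2 (x d c a b) : Exec (.pop 2) (st d c (x :: a) b) (st d c a b) 0 := by
  simpa only [upd2, st2, List.tail_cons] using Exec.pop 2 (st d c (x :: a) b)
lemma pop3 (x d c a b) : Exec (.pop 3) (st d c a (x :: b)) (st d c a b) 0 := by
  simpa only [upd3, st3, List.tail_cons] using Exec.pop 3 (st d c a (x :: b))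

/-- Record a bit on the selected scratch stacks. -/
def act (u v x : Bool) : Cmd :=
  .seq (bif u then .push 2 x else .skip) (bif v then .push 3 x else .skip)

/-- Prepend when selected. -/
def sel (u : Bool) (l a : List Bool) : List Bool := bif u then l ++ a else a

lemma sel_sel (u l m a) : sel u l (sel u m a) = sel u (l ++ m) a := by
  cases u <;> simp [sel]

lemma act_exec (u v x d c a b) :
    Exec (act u v x) (st d c a b) (st d c (sel u [x] a) (sel v [x] b)) 0 := by
  cases u <;> cases v
  · exact (Exec.skip _).seq (Exec.skip _)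
  · exact (Exec.skip _).seq (push3 _ _ _ _ _)
  · exact (push2 _ _ _ _ _).seq (Exec.skip _)
  · exact (push2 _ _ _ _ _).seq (push3 _ _ _ _ _)

def scanLoop (u v : Bool) : Cmd := .loop 1 (.test 0
  (.seq (.pop 0) (.seq (act u v true) (.push 1 true)))
  (.seq (.pop 0) (.seq (act u v false) (.pop 1))))

lemma scanLoop_exec (u v : Bool) : ∀ (t : Tr) (d c a b : List Bool) (S : St) (T : ℕ),
    Exec (scanLoop u v) (st d c (sel u t.code.reverse a) (sel v t.code.reverse b)) S T →
    Exec (scanLoop u v) (st (t.code ++ d) (true :: c) a b) S (T + t.code.length)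
  | .nil, d, c, a, b, S, T, h => by
    have h1 := (pop0 false d (true :: c) a b).seq ((act_exec u v false _ _ _ _).seq
      (pop1 _ _ _ _ _))
    exact (Exec.loop1 (by simp) (Exec.testF (by simp) h1) h).mono (by simp [Tr.code])
  | .node l r, d, c, a, b, S, T, h => by
    have h1 := (pop0 true (l.code ++ (r.code ++ d)) (true :: c) a b).seq
      ((act_exec u v true _ _ _ _).seq (push1 true _ _ _ _))
    have h2 := scanLoop_exec u v l (r.code ++ d) (true :: c) (sel u [true] a) (sel v [true] b) S _
      (scanLoop_exec u v r d c _ _ S T (by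
        simpa only [sel_sel, Tr.code, List.reverse_cons, List.reverse_append, List.append_assoc]
          using h))
    have h3 := Exec.loop1 (by simp) (Exec.testT (q := .seq (.pop 0) (.seq (act u v false) (.pop 1)))
      (by simp) h1) h2
    simp only [Tr.code, List.cons_append, List.append_assoc]
    exact h3.mono (by simp; omega)

/-- Remove the top tree from the data stack, recording it on the selected scratch stacks. -/
def scan (u v : Bool) : Cmd := .seq (.push 1 true) (scanLoop u v)

lemma scan_exec (u v : Bool) (t : Tr) (d a b : List Bool) :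
    Exec (scan u v) (st (t.code ++ d) [] a b)
      (st d [] (sel u t.code.reverse a) (sel v t.code.reverse b)) (t.code.length + 1) :=
  ((push1 true _ _ _ _).seq (scanLoop_exec u v t d [] a b _ _ (Exec.loop0 rfl))).mono (by omega)

def putA : Cmd := .loop 2 (.test 2 (.seq (.pop 2) (.push 0 true)) (.seq (.pop 2) (.push 0 false)))

def putB : Cmd := .loop 3 (.test 3 (.seq (.pop 3) (.push 0 true)) (.seq (.pop 3) (.push 0 false)))

lemma putA_exec (c b : List Bool) : ∀ (a d : List Bool),
    Exec putA (st d c a b) (st (a.reverse ++ d) c [] b) (a.length + 1)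
  | [], d => Exec.loop0 rfl
  | x :: a, d => by
    have h1 := (pop2 x d c a b).seq (push0 x _ _ _ _)
    have h2 := putA_exec c b a (x :: d)
    rw [List.reverse_cons, List.append_assoc]
    cases x with
    | true => exact (Exec.loop1 (by simp) (Exec.testT (by simp) h1) h2).mono (by simp)
    | false => exact (Exec.loop1 (by simp) (Exec.testF (by simp) h1) h2).mono (by simp)

lemma putB_exec (c a : List Bool) : ∀ (b d : List Bool),
    Exec putB (st d c a b) (st (b.reverse ++ d) c a []) (b.length + 1)
  | [], d => Exec.loop0 rfl
  | x :: b, d => by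
    have h1 := (pop3 x d c a b).seq (push0 x _ _ _ _)
    have h2 := putB_exec c a b (x :: d)
    rw [List.reverse_cons, List.append_assoc]
    cases x with
    | true => exact (Exec.loop1 (by simp) (Exec.testT (by simp) h1) h2).mono (by simp)
    | false => exact (Exec.loop1 (by simp) (Exec.testF (by simp) h1) h2).mono (by simp)

/-- `p` rewrites the top part `u` of the data stack into `v` in time `t`. -/
def Cmp (p : Cmd) (u v : List Bool) (t : ℕ) : Prop :=
  ∀ d, Exec p (st (u ++ d) [] [] []) (st (v ++ d) [] [] []) t

lemma Cmp.mono {p u v t t'} (h : Cmp p u v t) (ht : t ≤ t') : Cmp p u v t' :=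
  fun d => (h d).mono ht

lemma Cmp.seq {p q u v w t t'} (h : Cmp p u v t) (h' : Cmp q v w t') :
    Cmp (.seq p q) u w (t + t') := fun d => (h d).seq (h' d)

lemma Cmp.frame {p u v t} (h : Cmp p u v t) (w : List Bool) : Cmp p (u ++ w) (v ++ w) t :=
  fun d => by simpa only [List.append_assoc] using h (w ++ d)

lemma Cmp.skip (u) : Cmp .skip u u 0 := fun _ => Exec.skip _

lemma Cmp.push (x u) : Cmp (.push 0 x) u (x :: u) 0 := fun _ => push0 _ _ _ _ _

lemma Cmp.pop (x u) : Cmp (.pop 0) (x :: u) u 0 := fun _ => pop0 _ _ _ _ _

lemma Cmp.testT {p q u v t} (h : Cmp p (true :: u) v t) : Cmp (.test 0 p q) (true :: u) v t :=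
  fun d => Exec.testT (by simp) (h d)

lemma Cmp.testF {p q u v t} (h : Cmp q (false :: u) v t) : Cmp (.test 0 p q) (false :: u) v t :=
  fun d => Exec.testF (by simp) (h d)

def cDrop : Cmd := scan false false

lemma cDrop_cmp (t : Tr) : Cmp cDrop t.code [] (t.code.length + 1) :=
  fun d => scan_exec false false t d [] []

def cDup : Cmd := .seq (scan true true) (.seq putA putB)

lemma cDup_cmp (t : Tr) : Cmp cDup t.code (t.code ++ t.code) (3 * t.code.length + 3) := fun d => by
  have h := (scan_exec true true t d [] []).seq ((putA_exec _ _ _ _).seq (putB_exec _ _ _ _))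
  simp only [sel, cond_true, List.append_nil, List.reverse_reverse, List.length_reverse] at h
  rw [List.append_assoc]
  exact h.mono (by omega)

def cSwap : Cmd := .seq (scan true false) (.seq (scan false true) (.seq putA putB))

lemma cSwap_cmp (s t : Tr) : Cmp cSwap (s.code ++ t.code) (t.code ++ s.code)
    (2 * s.code.length + 2 * t.code.length + 4) := fun d => by
  have h := (scan_exec true false s (t.code ++ d) [] []).seq ((scan_exec false true t d _ _).seq
    ((putA_exec _ _ _ _).seq (putB_exec _ _ _ _)))
  simp only [sel, cond_true, cond_false, List.append_nil, List.reverse_reverse,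
    List.length_reverse] at h
  rw [List.append_assoc, List.append_assoc]
  exact h.mono (by omega)

/-- Left subtree. -/
def Tr.left : Tr → Tr
  | .nil => .nil
  | .node l _ => l

/-- Right subtree. -/
def Tr.right : Tr → Tr
  | .nil => .nil
  | .node _ r => r

/-- Test for a node. -/
def Tr.isNode : Tr → Bool
  | .nil => false
  | .node _ _ => true

def cRight : Cmd := .test 0 (.seq (.pop 0) cDrop) .skip

lemma cRight_cmp (t : Tr) : Cmp cRight t.code t.right.code t.code.length := by
  cases t with
  | nil => exact (Cmp.testF (Cmp.skip _)).mono (by simp)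
  | node l r =>
    exact (Cmp.testT ((Cmp.pop _ _).seq ((cDrop_cmp l).frame r.code))).mono (by simp [Tr.code])

def cLeft : Cmd := .test 0 (.seq (.pop 0) (.seq cSwap cDrop)) .skip

lemma cLeft_cmp (t : Tr) : Cmp cLeft t.code t.left.code (3 * t.code.length + 5) := by
  cases t with
  | nil => exact (Cmp.testF (Cmp.skip _)).mono (by simp)
  | node l r =>
    exact (Cmp.testT ((Cmp.pop _ _).seq ((cSwap_cmp l r).seq
      ((cDrop_cmp r).frame l.code)))).mono (by simp [Tr.code]; omega)

def codeLoop : Cmd := .loop 2 (.test 2
  (.seq (.pop 2) (.seq (.push 0 false) (.seq (.push 0 false) (.seq (.push 0 true) (.push 0 true)))))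
  (.seq (.pop 2) (.seq (.push 0 false) (.push 0 true))))

lemma codeLoop_exec : ∀ (a m d : List Bool),
    Exec codeLoop (st (bits m ++ d) [] a []) (st (bits (a.reverse ++ m) ++ d) [] [] [])
      (a.length + 1)
  | [], m, d => Exec.loop0 rfl
  | true :: a, m, d => by
    have h1 := (pop2 true (bits m ++ d) [] a []).seq ((push0 false _ _ _ _).seq
      ((push0 false _ _ _ _).seq ((push0 true _ _ _ _).seq (push0 true _ _ _ _))))
    have h2 := codeLoop_exec a (true :: m) d
    rw [List.reverse_cons, List.append_assoc]
    exact (Exec.loop1 (by simp) (Exec.testT (by simp) h1) h2).mono (by simp)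
  | false :: a, m, d => by
    have h1 := (pop2 false (bits m ++ d) [] a []).seq ((push0 false _ _ _ _).seq
      (push0 true _ _ _ _))
    have h2 := codeLoop_exec a (false :: m) d
    rw [List.reverse_cons, List.append_assoc]
    exact (Exec.loop1 (by simp) (Exec.testF (by simp) h1) h2).mono (by simp)

def cCode : Cmd := .seq (scan true false) (.seq (.push 0 false) codeLoop)

lemma cCode_cmp (t : Tr) : Cmp cCode t.code (bits t.code) (2 * t.code.length + 2) := fun d => by
  have h := (scan_exec true false t d [] []).seq ((push0 false _ _ _ _).seq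
    (codeLoop_exec _ [] d))
  simp only [sel, cond_true, List.append_nil, List.reverse_reverse,
    List.length_reverse] at h
  exact h.mono (by omega)

/-- Raise the flag when the left subtree of the top tree is a node. -/
def cFlag : Cmd := .seq (.pop 0) (.seq (.test 0 (.push 1 true) .skip) (.push 0 true))

lemma cFlag_exec (l r : Tr) (d : List Bool) :
    Exec cFlag (st ((Tr.node l r).code ++ d) [] [] [])
      (st ((Tr.node l r).code ++ d) (bif l.isNode then [true] else []) [] []) 0 := by
  cases l with
  | nil => exact (pop0 _ _ _ _ _).seq ((Exec.testF (by simp [Tr.code]) (Exec.skip _)).seq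
      (push0 _ _ _ _ _))
  | node a b => exact (pop0 _ _ _ _ _).seq ((Exec.testT (by simp [Tr.code])
      (push1 _ _ _ _ _)).seq (push0 _ _ _ _ _))

/-- Number of pushes in a program. -/
def Cmd.size : Cmd → ℕ
  | .skip => 0
  | .push _ _ => 1
  | .pop _ => 0
  | .seq p q => p.size + q.size
  | .loop _ p => p.size
  | .test _ p q => p.size + q.size

lemma Exec.length_le {p : Cmd} {S S' : St} {t : ℕ} (h : Exec p S S' t) (j : ℕ) :
    (S' j).length ≤ (S j).length + p.size * (t + 1) := by
  induction h with
  | skip S => simp
  | push k b S =>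
    by_cases hj : j = k
    · subst hj; simp [Cmd.size]
    · simp [update_of_ne hj]
  | pop k S =>
    by_cases hj : j = k
    · subst hj; simp [Cmd.size]
    · simp [update_of_ne hj]
  | seq _ _ ih1 ih2 => simp only [Cmd.size]; nlinarith
  | loop0 _ => simp
  | loop1 _ _ _ ih1 ih2 => simp only [Cmd.size] at ih2 ⊢; nlinarith
  | testT _ _ ih => simp only [Cmd.size]; nlinarith
  | testF _ _ ih => simp only [Cmd.size]; nlinarith
  | mono _ ht ih => nlinarith

end Vale.Agent.TM
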